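import Vale.Agent.P235.R2.H611.W1Any

/-!
P235-M (helper324).  Plane graphs with a nonexpansive function `h` which has few vertices without a
steep edge upwards or downwards: the literal rows.
-/

namespace Vale.Agent.P235.Few

open Vale.Agent.P235.Red

/-- tight upward edges -/
def Tt {V : Type} (G : SimpleGraph V) (ℓ : Sym2 V → ℝ) (h : V → ℝ) (u v : V) : Prop :=
  G.Adj u v ∧ ℓ s(u, v) = h v - h u

/-- every vertex outside `A` has a tight edge downwards, every vertex outside `B` has one upwards;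
all other edges are arbitrary -/
def RowFewT : Prop :=
  ∀ {C : ℝ}, 1 ≤ C → MStarLL C → ∀ (V : Type) [Finite V] (G : SimpleGraph V)
    (σ : Equiv.Perm G.Dart) (ℓ : Sym2 V → ℝ) (h : V → ℝ) (A B : Set V), G.Connected →
    PlaneMap G σ → (∀ e ∈ G.edgeSet, 0 < ℓ e) → (∀ u v, G.Adj u v → |h u - h v| ≤ ℓ s(u, v)) →
    (∀ v, v ∉ A → ∃ u, Tt G ℓ h u v) → (∀ v, v ∉ B → ∃ u, Tt G ℓ h v u) →
    EmbedsL1 (pathDist G ℓ) (1000000000000000 * C *
      ((ll (Nat.card V) : ℝ) + 1 + Real.log ((A.ncard : ℝ) + B.ncard + 2)))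

/-- the same with slopes at least `1/D` -/
def RowFew : Prop :=
  ∀ {C : ℝ}, 1 ≤ C → MStarLL C → ∀ (V : Type) [Finite V] (G : SimpleGraph V)
    (σ : Equiv.Perm G.Dart) (ℓ : Sym2 V → ℝ) (h : V → ℝ) (A B : Set V) (D : ℝ), 1 ≤ D →
    G.Connected → PlaneMap G σ → (∀ e ∈ G.edgeSet, 0 < ℓ e) →
    (∀ u v, G.Adj u v → |h u - h v| ≤ ℓ s(u, v)) →
    (∀ v, v ∉ A → ∃ u, G.Adj v u ∧ ℓ s(v, u) ≤ D * (h v - h u)) →
    (∀ v, v ∉ B → ∃ u, G.Adj v u ∧ ℓ s(v, u) ≤ D * (h u - h v)) →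
    EmbedsL1 (pathDist G ℓ) (1000000000000000 * C * D *
      ((ll (Nat.card V) : ℝ) + 1 + Real.log ((A.ncard : ℝ) + B.ncard + 2)))

end Vale.Agent.P235.Few
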