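import Vale.Agent.P235.R2.H324.Dil
import Vale.Agent.P235.R2.H324.FewDefs
import Vale.Agent.P235.R2.H611.TermFinal
import Vale.Agent.P235.R2.H341.W2

/-!
P235-M (helper324).  Plane graphs with a nonexpansive function which has few vertices without a
tight edge upwards or downwards.  Part 1: order and components.
-/

namespace Vale.Agent.P235.Few

open Relation Vale.Agent.P235

/-- a finite poset without three pairwise incomparable elements is the union of two chains -/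
theorem two_chains {V : Type} [Finite V] {R : V → V → Prop}
    (htr : ∀ a b c, R a b → R b c → R a c) (hanti : ∀ a b, R a b → R b a → a = b)
    (hrefl : ∀ a, R a a) {S : Set V}
    (h3 : ∀ a ∈ S, ∀ b ∈ S, ∀ c ∈ S, R a b ∨ R b a ∨ R a c ∨ R c a ∨ R b c ∨ R c b) :
    ∃ C : Fin 2 → Set V, (∀ x ∈ S, ∃ i, x ∈ C i) ∧
      ∀ i, ∀ a ∈ C i, ∀ b ∈ C i, R a b ∨ R b a := by
  classical
  have := Fintype.ofFinite V
  set W : Finset V := Finset.univ.filter (· ∈ S) with hW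
  have hmem : ∀ x, x ∈ W ↔ x ∈ S := fun x => by simp [hW]
  have hwid : WidthLe (fun a b => R a b ∧ a ≠ b) W 2 := by
    intro X hX hXa
    by_contra hcard
    push Not at hcard
    obtain ⟨a, ha, b, hb, c, hc, hab, hac, hbc⟩ := Finset.two_lt_card.1 hcard
    have key : ∀ x ∈ X, ∀ y ∈ X, x ≠ y → ¬ R x y := fun x hx y hy hne hR => hXa x hx y hy ⟨hR, hne⟩
    rcases h3 a ((hmem a).1 (hX ha)) b ((hmem b).1 (hX hb)) c ((hmem c).1 (hX hc)) with
      h | h | h | h | h | h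
    · exact key a ha b hb hab h
    · exact key b hb a ha hab.symm h
    · exact key a ha c hc hac h
    · exact key c hc a ha hac.symm h
    · exact key b hb c hc hbc h
    · exact key c hc b hb hbc.symm h
  obtain ⟨c, hc1, hc2⟩ := dilworth (r := fun a b => R a b ∧ a ≠ b) (by
    rintro a b c ⟨h1, h2⟩ ⟨h3, h4⟩
    refine ⟨htr _ _ _ h1 h3, ?_⟩
    rintro rfl
    exact h2 (hanti _ _ h1 h3)) (fun a h => h.2 rfl) hwid
  refine ⟨fun i => {x | x ∈ S ∧ c x = i}, fun x hx => ?_, ?_⟩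
  · exact ⟨⟨c x, hc1 x ((hmem x).2 hx)⟩, hx, rfl⟩
  · rintro i a ⟨ha, hai⟩ b ⟨hb, hbi⟩
    rcases hc2 a ((hmem a).2 ha) b ((hmem b).2 hb) (hai.trans hbi.symm) with h | h | h
    · exact Or.inl (h ▸ hrefl a)
    · exact Or.inl h.1
    · exact Or.inr h.1

section order

variable {V : Type} {G : SimpleGraph V} {ℓ : Sym2 V → ℝ} {h : V → ℝ}

/-- tight upward paths -/
def Up (G : SimpleGraph V) (ℓ : Sym2 V → ℝ) (h : V → ℝ) : V → V → Prop :=
  ReflTransGen (Tt G ℓ h)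

theorem Tt.lt (hℓ : ∀ e ∈ G.edgeSet, 0 < ℓ e) {u v : V} (hh : Tt G ℓ h u v) : h u < h v := by
  have h1 := hℓ _ (G.mem_edgeSet.2 hh.1)
  rw [hh.2] at h1
  linarith

theorem Up.lt_or_eq (hℓ : ∀ e ∈ G.edgeSet, 0 < ℓ e) {u v : V} (hh : Up G ℓ h u v) :
    u = v ∨ h u < h v := by
  induction hh with
  | refl => exact Or.inl rfl
  | tail _ h2 ih =>
    have h3 := Tt.lt hℓ h2
    rcases ih with rfl | ih
    · exact Or.inr h3
    · exact Or.inr (ih.trans h3)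

theorem Up.antisymm (hℓ : ∀ e ∈ G.edgeSet, 0 < ℓ e) (u v : V) (h1 : Up G ℓ h u v)
    (h2 : Up G ℓ h v u) : u = v := by
  rcases h1.lt_or_eq hℓ with h3 | h3
  · exact h3
  · rcases h2.lt_or_eq hℓ with h4 | h4
    · exact h4.symm
    · exact absurd (h3.trans h4) (lt_irrefl _)

theorem Up.dist [Finite V] (hc : G.Connected) (hℓ : ∀ e ∈ G.edgeSet, 0 < ℓ e) {u v : V}
    (hh : Up G ℓ h u v) : pathDist G ℓ u v ≤ h v - h u := by
  have hd := pathDist_isMet hc hℓ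
  induction hh with
  | refl => rw [hd.self, sub_self]
  | @tail b c _ h2 ih =>
    have h3 := pathDist_adj hℓ h2.1
    have h4 := hd.tri u b c
    have h5 := h2.2
    linarith

theorem exists_bot [Finite V] (hℓ : ∀ e ∈ G.edgeSet, 0 < ℓ e) {A : Set V}
    (hlow : ∀ v, v ∉ A → ∃ u, Tt G ℓ h u v) (v : V) : ∃ a ∈ A, Up G ℓ h a v := by
  obtain ⟨w, hw, hmin⟩ := Set.exists_min_image {w | Up G ℓ h w v} h (Set.toFinite _)
    ⟨v, ReflTransGen.refl⟩
  by_contra hcon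
  push Not at hcon
  obtain ⟨u, hu⟩ := hlow w fun hwA => hcon w hwA hw
  exact absurd (hmin u (ReflTransGen.head hu hw)) (not_le.2 (hu.lt hℓ))

theorem exists_top' [Finite V] (hℓ : ∀ e ∈ G.edgeSet, 0 < ℓ e) {B : Set V}
    (hhigh : ∀ v, v ∉ B → ∃ u, Tt G ℓ h v u) (v : V) : ∃ b ∈ B, Up G ℓ h v b := by
  obtain ⟨w, hw, hmax⟩ := Set.exists_max_image {w | Up G ℓ h v w} h (Set.toFinite _)
    ⟨v, ReflTransGen.refl⟩
  by_contra hcon
  push Not at hcon
  obtain ⟨u, hu⟩ := hhigh w fun hwB => hcon w hwB hw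
  exact absurd (hmax u (ReflTransGen.tail hw hu)) (not_le.2 (hu.lt hℓ))

/-- what is above `A` and below `B` -/
def Btw (G : SimpleGraph V) (ℓ : Sym2 V → ℝ) (h : V → ℝ) (A B : Set V) : Set V :=
  {v | (∃ a ∈ A, Up G ℓ h a v) ∧ ∃ b ∈ B, Up G ℓ h v b}

/-- every component of the complement of `Btw` contains an exceptional vertex -/
theorem exists_exc [Finite V] (hℓ : ∀ e ∈ G.edgeSet, 0 < ℓ e) {A B A' B' : Set V}
    (hlow : ∀ v, v ∉ A' → ∃ u, Tt G ℓ h u v) (hhigh : ∀ v, v ∉ B' → ∃ u, Tt G ℓ h v u)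
    {u : V} (hu : u ∉ Btw G ℓ h A B) :
    ∃ x ∈ A' ∪ B', x ∈ compSet G (Btw G ℓ h A B) u := by
  have hux : u ∈ compSet G (Btw G ℓ h A B) u := ReachOff.refl hu
  by_contra hcon
  push Not at hcon
  apply hu
  constructor
  · obtain ⟨w, ⟨hwK, hw⟩, hmin⟩ := Set.exists_min_image
      {w | w ∈ compSet G (Btw G ℓ h A B) u ∧ Up G ℓ h w u} h (Set.toFinite _)
      ⟨u, hux, ReflTransGen.refl⟩
    obtain ⟨z, hz⟩ := hlow w fun hwA => hcon w (Or.inl hwA) hwK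
    have hzL : z ∈ Btw G ℓ h A B := by
      by_contra hzL
      have hzK : z ∈ compSet G (Btw G ℓ h A B) u :=
        ReachOff.trans hwK (ReachOff.adj (ReachOff.right hwK) hzL hz.1.symm)
      exact absurd (hmin z ⟨hzK, ReflTransGen.head hz hw⟩) (not_le.2 (hz.lt hℓ))
    obtain ⟨⟨a, ha, haz⟩, -⟩ := hzL
    exact ⟨a, ha, (haz.tail hz).trans hw⟩
  · obtain ⟨w, ⟨hwK, hw⟩, hmax⟩ := Set.exists_max_image
      {w | w ∈ compSet G (Btw G ℓ h A B) u ∧ Up G ℓ h u w} h (Set.toFinite _)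
      ⟨u, hux, ReflTransGen.refl⟩
    obtain ⟨z, hz⟩ := hhigh w fun hwB => hcon w (Or.inr hwB) hwK
    have hzL : z ∈ Btw G ℓ h A B := by
      by_contra hzL
      have hzK : z ∈ compSet G (Btw G ℓ h A B) u :=
        ReachOff.trans hwK (ReachOff.adj (ReachOff.right hwK) hzL hz.1)
      exact absurd (hmax z ⟨hzK, ReflTransGen.tail hw hz⟩) (not_le.2 (hz.lt hℓ))
    obtain ⟨-, b, hb, hzb⟩ := hzL
    exact ⟨b, hb, hw.trans (ReflTransGen.head hz hzb)⟩

/-- **attachments of a connected set**: two of any three are comparable (one vertex at each end) -/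
theorem attach_three [Finite V] (hc : G.Connected) (hP : ∃ σ : Equiv.Perm G.Dart, PlaneMap G σ)
    (hℓ : ∀ e ∈ G.edgeSet, 0 < ℓ e) {a b : V} (hab : Up G ℓ h a b) {K : Set V}
    (hK : (G.induce K).Connected) (hKL : Disjoint K (Btw G ℓ h {a} {b})) :
    ∀ x ∈ {y | y ∈ Btw G ℓ h {a} {b} ∧ ∃ v ∈ K, G.Adj v y},
    ∀ y ∈ {y | y ∈ Btw G ℓ h {a} {b} ∧ ∃ v ∈ K, G.Adj v y},
    ∀ z ∈ {y | y ∈ Btw G ℓ h {a} {b} ∧ ∃ v ∈ K, G.Adj v y},
      Up G ℓ h x y ∨ Up G ℓ h y x ∨ Up G ℓ h x z ∨ Up G ℓ h z x ∨ Up G ℓ h y z ∨ Up G ℓ h z y := by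
  rintro x ⟨hxL, hx⟩ y ⟨hyL, hy⟩ z ⟨hzL, hz⟩
  set L := Btw G ℓ h {a} {b} with hL
  let U : V → V → Prop := fun u v => Tt G ℓ h u v ∧ u ∈ L ∧ v ∈ L
  have hmono : ∀ u v, ReflTransGen U u v → Up G ℓ h u v := by
    intro u v huv
    induction huv with
    | refl => exact ReflTransGen.refl
    | tail _ h2 ih => exact ReflTransGen.tail ih h2.1
  have hupa : ∀ v ∈ L, Up G ℓ h a v := by
    rintro v ⟨⟨a', ha', h1⟩, -⟩
    rw [Set.mem_singleton_iff.1 ha'] at h1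
    exact h1
  have hupb : ∀ v ∈ L, Up G ℓ h v b := by
    rintro v ⟨-, b', hb', h1⟩
    rw [Set.mem_singleton_iff.1 hb'] at h1
    exact h1
  have hmk : ∀ v, Up G ℓ h a v → Up G ℓ h v b → v ∈ L := fun v h1 h2 =>
    ⟨⟨a, rfl, h1⟩, b, rfl, h2⟩
  have := Quo.w2_row V G hc hP L h a b U
    (fun u v huv => ⟨huv.1.1, huv.1.lt hℓ, huv.2.1, huv.2.2⟩)
    (hmk a ReflTransGen.refl hab) (hmk b hab ReflTransGen.refl)
    (fun v hv hva => by
      rcases ReflTransGen.cases_tail (hupa v hv) with h1 | ⟨c, h1, h2⟩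
      · exact absurd h1 hva
      · exact ⟨c, h2, hmk c h1 (ReflTransGen.head h2 (hupb v hv)), hv⟩)
    (fun v hv hvb => by
      rcases ReflTransGen.cases_head (hupb v hv) with h1 | ⟨c, h1, h2⟩
      · exact absurd h1 hvb
      · exact ⟨c, h1, hv, hmk c (ReflTransGen.tail (hupa v hv) h1) h2⟩)
    K hK hKL x hxL y hyL z hzL hx hy hz
  rcases this with h1 | h1 | h1 | h1 | h1 | h1
  · exact Or.inl (hmono _ _ h1)
  · exact Or.inr (Or.inl (hmono _ _ h1))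
  · exact Or.inr (Or.inr (Or.inl (hmono _ _ h1)))
  · exact Or.inr (Or.inr (Or.inr (Or.inl (hmono _ _ h1))))
  · exact Or.inr (Or.inr (Or.inr (Or.inr (Or.inl (hmono _ _ h1)))))
  · exact Or.inr (Or.inr (Or.inr (Or.inr (Or.inr (hmono _ _ h1)))))

end order

end Vale.Agent.P235.Few
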