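import Vale.Agent.P235.R2.H324.Few1

/-!
P235-M (helper324).  Few exceptional vertices, part 2: lanes, pieces and the theorem.
-/

namespace Vale.Agent.P235.Few

open Relation Vale.Agent.P235 Vale.Agent.P235.Red Vale.Agent.P235.H341W

section complete

variable {V : Type} {G : SimpleGraph V} {ℓ : Sym2 V → ℝ}

/-- distances of `G` as lengths on the complete graph of a part -/
noncomputable def cl (G : SimpleGraph V) (ℓ : Sym2 V → ℝ) (hs : ∀ x y, pathDist G ℓ x y = pathDist G ℓ y x)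
    (L : Set V) : Sym2 L → ℝ :=
  Sym2.lift ⟨fun x y => pathDist G ℓ x.1 y.1, fun x y => hs x.1 y.1⟩

theorem top_conn {L : Set V} (hL : L.Nonempty) : (⊤ : SimpleGraph L).Connected := by
  obtain ⟨x, hx⟩ := hL
  have : Nonempty L := ⟨⟨x, hx⟩⟩
  refine ⟨fun a b => ?_⟩
  by_cases hab : a = b
  · rw [hab]
  · exact (show (⊤ : SimpleGraph L).Adj a b from hab).reachable

theorem cl_pos [Finite V] (hc : G.Connected) (hℓ : ∀ e ∈ G.edgeSet, 0 < ℓ e)
    (hs : ∀ x y, pathDist G ℓ x y = pathDist G ℓ y x) (L : Set V) :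
    ∀ e ∈ (⊤ : SimpleGraph L).edgeSet, 0 < cl G ℓ hs L e := by
  intro e he
  induction e with
  | _ a b =>
    have hab : a ≠ b := he
    exact (pathDist_isMet hc hℓ).pos a.1 b.1 fun h => hab (Subtype.ext h)

theorem cl_dist [Finite V] (hc : G.Connected) (hℓ : ∀ e ∈ G.edgeSet, 0 < ℓ e)
    (hs : ∀ x y, pathDist G ℓ x y = pathDist G ℓ y x) {L : Set V} (hL : L.Nonempty) (x y : L) :
    pathDist (⊤ : SimpleGraph L) (cl G ℓ hs L) x y = pathDist G ℓ x y := by
  have hd := pathDist_isMet hc hℓ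
  have hd' := pathDist_isMet (top_conn hL) (cl_pos hc hℓ hs L)
  apply le_antisymm
  · by_cases hxy : x = y
    · rw [hxy, hd'.self, hd.self]
    · exact pathDist_adj (cl_pos hc hℓ hs L) (show (⊤ : SimpleGraph L).Adj x y from hxy)
  · have := pathDist_semi (G := (⊤ : SimpleGraph L)) (ℓ := cl G ℓ hs L)
      (ρ := fun a b : L => pathDist G ℓ a b) (K := 1) (top_conn hL) one_pos
      (fun a => hd.self _) (fun a b c => hd.tri _ _ _)
      (fun a b _ => by rw [one_mul]; exact le_rfl) x y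
    rwa [one_mul] at this

end complete

section lanes

variable {V : Type} [Finite V] {G : SimpleGraph V} {ℓ : Sym2 V → ℝ} {h : V → ℝ}

/-- the chains which cover the attachments of one component -/
theorem exists_chains (hc : G.Connected) (hP : ∃ σ : Equiv.Perm G.Dart, PlaneMap G σ)
    (hℓ : ∀ e ∈ G.edgeSet, 0 < ℓ e) (a b x : V) :
    ∃ C : Fin 2 → Set V, (∀ i, ∀ y ∈ C i, ∀ z ∈ C i, Up G ℓ h y z ∨ Up G ℓ h z y) ∧
      (x ∉ Btw G ℓ h {a} {b} → ∀ y ∈ attach G (Btw G ℓ h {a} {b}) x, ∃ i, y ∈ C i) := by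
  by_cases hx : x ∈ Btw G ℓ h {a} {b}
  · exact ⟨fun _ => ∅, by simp, fun h1 => absurd hx h1⟩
  by_cases hab : Up G ℓ h a b
  · obtain ⟨C, h1, h2⟩ := two_chains (R := Up G ℓ h) (fun _ _ _ => ReflTransGen.trans)
      (Up.antisymm hℓ) (fun _ => ReflTransGen.refl)
      (attach_three hc hP hℓ hab (comp_connected hx)
        (Set.disjoint_left.2 fun v hv => ReachOff.right hv))
    exact ⟨C, h2, fun _ y hy => h1 y hy⟩
  · refine ⟨fun _ => ∅, by simp, fun _ y hy => ?_⟩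
    obtain ⟨⟨⟨a', ha', h1⟩, b', hb', h2⟩, -⟩ := hy
    rw [Set.mem_singleton_iff.1 ha'] at h1
    rw [Set.mem_singleton_iff.1 hb'] at h2
    exact absurd (h1.trans h2) hab

/-- **the cover**: few tight chains such that every component of the complement of their union is
between two exceptional vertices -/
theorem exists_cover (hc : G.Connected) (hP : ∃ σ : Equiv.Perm G.Dart, PlaneMap G σ)
    (hℓ : ∀ e ∈ G.edgeSet, 0 < ℓ e) (h1 : ∀ u v, G.Adj u v → |h u - h v| ≤ ℓ s(u, v))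
    {A B : Set V} (hlow : ∀ v, v ∉ A → ∃ u, Tt G ℓ h u v)
    (hhigh : ∀ v, v ∉ B → ∃ u, Tt G ℓ h v u) :
    ∃ X : Set V, X.Nonempty ∧
      Lanes G ℓ (2 * (A.ncard + B.ncard) ^ 3 + 1) X ∧
      ∀ u ∉ X, ∃ a ∈ A, ∃ b ∈ B, compSet G X u ⊆ Btw G ℓ h {a} {b} := by
  classical
  have := Fintype.ofFinite V
  obtain ⟨v0⟩ := hc.nonempty
  choose C hC1 hC2 using fun a b x : V => exists_chains (h := h) hc hP hℓ a b x
  let ι : Type := Option ((A × B) × ((A ∪ B : Set V) × Fin 2))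
  have : Fintype ι := Fintype.ofFinite ι
  let c : ι → Set V := fun o => o.elim {v0} fun q =>
    if (C q.1.1 q.1.2 q.2.1 q.2.2).Nonempty then C q.1.1 q.1.2 q.2.1 q.2.2 else {v0}
  have hcne : ∀ o, (c o).Nonempty := by
    rintro (_ | q)
    · exact ⟨v0, rfl⟩
    · show (if (C q.1.1 q.1.2 q.2.1 q.2.2).Nonempty then C q.1.1 q.1.2 q.2.1 q.2.2
        else {v0}).Nonempty
      split
      · assumption
      · exact ⟨v0, rfl⟩
  have hcch : ∀ o, ∀ y ∈ c o, ∀ z ∈ c o, Up G ℓ h y z ∨ Up G ℓ h z y := by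
    rintro (_ | q) y hy z hz
    · rw [Set.mem_singleton_iff.1 hy, Set.mem_singleton_iff.1 hz]
      exact Or.inl ReflTransGen.refl
    · change y ∈ (if (C q.1.1 q.1.2 q.2.1 q.2.2).Nonempty then C q.1.1 q.1.2 q.2.1 q.2.2
        else {v0}) at hy
      change z ∈ (if (C q.1.1 q.1.2 q.2.1 q.2.2).Nonempty then C q.1.1 q.1.2 q.2.1 q.2.2
        else {v0}) at hz
      split at hy
      · rename_i hne
        rw [if_pos hne] at hz
        exact hC1 _ _ _ _ y hy z hz
      · rename_i hne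
        rw [if_neg hne] at hz
        rw [Set.mem_singleton_iff.1 hy, Set.mem_singleton_iff.1 hz]
        exact Or.inl ReflTransGen.refl
  set X : Set V := ⋃ i : Fin (Fintype.card ι), c ((Fintype.equivFin ι).symm i) with hX
  have hcX : ∀ o, c o ⊆ X := by
    intro o y hy
    refine Set.mem_iUnion.2 ⟨Fintype.equivFin ι o, ?_⟩
    rwa [Equiv.symm_apply_apply]
  have hcard : Fintype.card ι ≤ 2 * (A.ncard + B.ncard) ^ 3 + 1 := by
    have e1 : Fintype.card ι = (A.ncard * B.ncard) * ((A ∪ B).ncard * 2) + 1 := by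
      rw [← Nat.card_eq_fintype_card]
      show Nat.card (Option ((A × B) × ((A ∪ B : Set V) × Fin 2))) = _
      rw [Finite.card_option, Nat.card_prod, Nat.card_prod, Nat.card_prod, Nat.card_fin,
        Nat.card_coe_set_eq, Nat.card_coe_set_eq, Nat.card_coe_set_eq]
    rw [e1]
    have e2 : (A ∪ B).ncard ≤ A.ncard + B.ncard := Set.ncard_union_le A B
    have e3 : A.ncard * B.ncard ≤ (A.ncard + B.ncard) * (A.ncard + B.ncard) :=
      Nat.mul_le_mul (Nat.le_add_right _ _) (Nat.le_add_left _ _)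
    have e4 := Nat.mul_le_mul e3 (Nat.mul_le_mul_right 2 e2)
    calc _ ≤ (A.ncard + B.ncard) * (A.ncard + B.ncard) * ((A.ncard + B.ncard) * 2) + 1 :=
          Nat.add_le_add_right e4 1
      _ = _ := by ring
  refine ⟨X, ⟨v0, hcX none rfl⟩, ⟨h, Fintype.card ι, fun i => c ((Fintype.equivFin ι).symm i),
    hcard, pathDist_gen hc h1, fun i => hcne _, fun i y hy z hz => ?_, rfl⟩, fun u hu => ?_⟩
  · have hd := pathDist_isMet hc hℓ
    rcases hcch _ y hy z hz with h2 | h2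
    · refine (h2.dist hc hℓ).trans ?_
      rw [abs_sub_comm]
      exact le_abs_self _
    · rw [hd.symm]
      exact (h2.dist hc hℓ).trans (le_abs_self _)
  · obtain ⟨a, ha, hau⟩ := exists_bot hℓ hlow u
    obtain ⟨b, hb, hub⟩ := exists_top' hℓ hhigh u
    refine ⟨a, ha, b, hb, ?_⟩
    have huL : u ∈ Btw G ℓ h {a} {b} := ⟨⟨a, rfl, hau⟩, b, rfl, hub⟩
    have key : ∀ (y z : V) (p : G.Walk y z), (∀ w ∈ p.support, w ∉ X) →
        y ∈ Btw G ℓ h {a} {b} → z ∈ Btw G ℓ h {a} {b} := by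
      intro y z p
      induction p with
      | nil => exact fun _ h2 => h2
      | @cons y w z hyw p ih =>
        intro hp hy
        apply ih (fun v hv => hp v (by simp [hv]))
        by_contra hw
        obtain ⟨x, hx, hxw⟩ := exists_exc hℓ hlow hhigh hw
        have hxL : x ∉ Btw G ℓ h {a} {b} := ReachOff.right hxw
        have hatt : y ∈ attach G (Btw G ℓ h {a} {b}) x :=
          ⟨hy, w, ReachOff.symm hxw, hyw.symm⟩
        obtain ⟨i, hi⟩ := hC2 a b x hxL y hatt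
        have hyX : y ∈ X := by
          refine hcX (some ((⟨a, ha⟩, ⟨b, hb⟩), (⟨x, hx⟩, i))) ?_
          show y ∈ (if (C a b x i).Nonempty then C a b x i else {v0})
          rw [if_pos ⟨y, hi⟩]
          exact hi
        exact hp y (by simp) hyX
    rintro v ⟨p, hp⟩
    exact key u v p hp huL

end lanes

/-- **Few exceptional vertices, tight form.** -/
theorem rowFewT : RowFewT := by
  intro C hC hM V _ G σ ℓ h A B hc hP hℓ h1 hlow hhigh
  classical
  have hd := pathDist_isMet hc hℓ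
  obtain ⟨X, hXne, hXl, hX⟩ := exists_cover hc ⟨σ, hP⟩ hℓ h1 hlow hhigh
  have hbot := exists_bot hℓ hlow
  have htop := exists_top' hℓ hhigh
  have hch : ∀ u, ∃ a b, Up G ℓ h a b ∧ (u ∉ X → compSet G X u ⊆ Btw G ℓ h {a} {b}) := by
    intro u
    by_cases hu : u ∈ X
    · exact ⟨u, u, ReflTransGen.refl, fun h2 => absurd hu h2⟩
    · obtain ⟨a, -, b, -, h2⟩ := hX u hu
      obtain ⟨⟨a', ha', h3⟩, b', hb', h4⟩ := h2 (ReachOff.refl hu)
      rw [Set.mem_singleton_iff.1 ha'] at h3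
      rw [Set.mem_singleton_iff.1 hb'] at h4
      exact ⟨a, b, h3.trans h4, fun _ => h2⟩
  choose a b hab hcomp using hch
  let L : V → Set V := fun u => Btw G ℓ h {a u} {b u}
  have hLne : ∀ u, (L u).Nonempty := fun u =>
    ⟨a u, ⟨a u, rfl, ReflTransGen.refl⟩, b u, rfl, hab u⟩
  have hs := hd.symm
  let C₀ : ℝ := 219073 * 96 * C * 1 * (2 * 1 + 1) * ((ll (Nat.card V) : ℝ) + 3)
  let Q : ∀ (V : Type), SimpleGraph V → (Sym2 V → ℝ) → Prop := fun V' G' ℓ' =>
    EmbedsL1 (pathDist G' ℓ') C₀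
  have hll : (0 : ℝ) ≤ (ll (Nat.card V) : ℝ) := Nat.cast_nonneg _
  have hC₀ : 1 ≤ C₀ := by
    show (1 : ℝ) ≤ 219073 * 96 * C * 1 * (2 * 1 + 1) * ((ll (Nat.card V) : ℝ) + 3)
    nlinarith
  have hleaf : ∀ u, Q (L u) (⊤ : SimpleGraph (L u)) (cl G ℓ hs (L u)) := by
    intro u
    have hmk : ∀ v, Up G ℓ h (a u) v → Up G ℓ h v (b u) → v ∈ L u := fun v h2 h3 =>
      ⟨⟨a u, rfl, h2⟩, b u, rfl, h3⟩
    have hE := Quo.terminals hC hM V G σ ℓ h (L u) {a u} {b u} 1 le_rfl hc hP hℓ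
      ⟨Or.inl ⟨a u, rfl⟩, Or.inl ⟨b u, rfl⟩, Or.inl ⟨a u, rfl⟩⟩
      (fun x _ y _ => pathDist_gen hc h1 x y)
      (fun v hv hva => by
        obtain ⟨⟨a', ha', h2⟩, b', hb', h3⟩ := hv
        rw [Set.mem_singleton_iff.1 ha'] at h2
        rw [Set.mem_singleton_iff.1 hb'] at h3
        rcases ReflTransGen.cases_tail h2 with h4 | ⟨w, h4, h5⟩
        · exact absurd h4 hva
        · refine ⟨w, hmk w h4 (ReflTransGen.head h5 h3), h5.1.symm, ?_⟩
          rw [Sym2.eq_swap, h5.2, one_mul])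
      (fun v hv hvb => by
        obtain ⟨⟨a', ha', h2⟩, b', hb', h3⟩ := hv
        rw [Set.mem_singleton_iff.1 ha'] at h2
        rw [Set.mem_singleton_iff.1 hb'] at h3
        rcases ReflTransGen.cases_head h3 with h4 | ⟨w, h4, h5⟩
        · exact absurd h4 hvb
        · refine ⟨w, hmk w (ReflTransGen.tail h2 h4) h5, h4.1, ?_⟩
          rw [h4.2, one_mul])
    show EmbedsL1 (pathDist (⊤ : SimpleGraph (L u)) (cl G ℓ hs (L u))) C₀
    rw [show pathDist (⊤ : SimpleGraph (L u)) (cl G ℓ hs (L u)) =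
      fun x y : L u => pathDist G ℓ x y from
        funext fun x => funext fun y => cl_dist hc hℓ hs (hLne u) x y]
    exact hE
  have hrounds : Rounds Q (2 * (A.ncard + B.ncard) ^ 3 + 1) 0 (0 + 1) G ℓ := by
    refine Rounds.lanes (W := fun u => L u) (G' := fun u => (⊤ : SimpleGraph (L u)))
      (ℓ' := fun u => cl G ℓ hs (L u))
      (κ := fun u v => ⟨v.1, hcomp u (ReachOff.left v.2) v.2⟩) hXne hXl ?_ ?_
    · intro u hu
      refine ⟨inferInstance, top_conn (hLne u), cl_pos hc hℓ hs _, fun x y hxy => ?_,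
        fun x y => ?_⟩
      · rw [cl_dist hc hℓ hs (hLne u)]
        exact pathDist_adj hℓ hxy
      · rw [cl_dist hc hℓ hs (hLne u)]
    · exact fun u _ => Rounds.leaf (hleaf u)
  obtain ⟨Ω, m, μ, g, hg⟩ := rounds_distortion Q hC₀ (fun V' _ G' ℓ' _ _ h2 => h2)
    (2 * (A.ncard + B.ncard) ^ 3 + 1) 0 (0 + 1) V G ℓ hc hℓ hrounds
  refine ⟨Ω, m, μ, g, fun x y => ⟨(hg x y).1, (hg x y).2.trans
    (mul_le_mul_of_nonneg_right ?_ (pd_nonneg hℓ x y))⟩⟩
  obtain ⟨M, hM'⟩ : ∃ M : ℝ, M = (A.ncard : ℝ) + B.ncard := ⟨_, rfl⟩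
  have hM0 : 0 ≤ M := by rw [hM']; positivity
  rw [← hM']
  have hlog : Real.log (((2 * (A.ncard + B.ncard) ^ 3 + 1 : ℕ) : ℝ) + 2) ≤
      4 * Real.log (M + 2) := by
    rw [show (4 : ℝ) * Real.log (M + 2) = Real.log ((M + 2) ^ 4) by
      rw [Real.log_pow]; norm_num]
    apply Real.log_le_log (by positivity)
    push_cast
    rw [← hM']
    nlinarith [pow_nonneg hM0 2, pow_nonneg hM0 3, pow_nonneg hM0 4]
  have hlog0 : 0 ≤ Real.log (M + 2) := Real.log_nonneg (by linarith)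
  show 5000000 * (219073 * 96 * C * 1 * (2 * 1 + 1) * ((ll (Nat.card V) : ℝ) + 3) +
    ((0 + 1 : ℕ) : ℝ) * (((0 : ℕ) : ℝ) +
      Real.log (((2 * (A.ncard + B.ncard) ^ 3 + 1 : ℕ) : ℝ) + 2))) ≤ _
  have h5 : (ll (Nat.card V) : ℝ) + 3 ≤ 3 * ((ll (Nat.card V) : ℝ) + 1) := by linarith
  have h6 : 219073 * 96 * C * 1 * (2 * 1 + 1) * ((ll (Nat.card V) : ℝ) + 3) ≤
      219073 * 96 * C * 1 * (2 * 1 + 1) * (3 * ((ll (Nat.card V) : ℝ) + 1)) :=
    mul_le_mul_of_nonneg_left h5 (by positivity)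
  have h7 : Real.log (M + 2) ≤ C * Real.log (M + 2) := by nlinarith
  have h8 : 0 ≤ C * ((ll (Nat.card V) : ℝ) + 1) := by positivity
  have h9 : 0 ≤ C * Real.log (M + 2) := by positivity
  push_cast at hlog ⊢
  nlinarith

end Vale.Agent.P235.Few
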