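/-
P235-M (helper324).  Rounds of tight sets, plane side: the neighbours of a connected set outside a
tight set lie on two lanes.
-/
import Vale.Agent.P235.R2.H899.RtDefs
import Vale.Agent.P235.R2.H324.Few1

set_option linter.all false
set_option autoImplicit false

namespace Vale.Agent.P235.RT

open SimpleGraph Relation Vale.Agent.P235 Vale.Agent.P235.Red Vale.Agent.P235.Red.F0
  Vale.Agent.P235.H341W Vale.Agent.P235.Red.W3 Vale.Agent.P235.Quo Vale.Agent.P235.R2.H899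

variable {V : Type} {G : SimpleGraph V} {ℓ : Sym2 V → ℝ} {h : V → ℝ} {L K B₁ B₂ : Set V}

/-- `b` is above `a` -/
def Ab (G : SimpleGraph V) (ℓ : Sym2 V → ℝ) (h : V → ℝ) (a b : V) : Prop :=
  pathDist G ℓ a b ≤ h b - h a

/-- among three neighbours of `K` in `L` two are comparable -/
def Three (G : SimpleGraph V) (ℓ : Sym2 V → ℝ) (h : V → ℝ) (L K : Set V) : Prop :=
  ∀ a ∈ L, ∀ b ∈ L, ∀ c ∈ L, (∃ x ∈ K, G.Adj x a) → (∃ x ∈ K, G.Adj x b) →
    (∃ x ∈ K, G.Adj x c) →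
    Ab G ℓ h a b ∨ Ab G ℓ h b a ∨ Ab G ℓ h a c ∨ Ab G ℓ h c a ∨ Ab G ℓ h b c ∨ Ab G ℓ h c b

theorem three_neg (hc : G.Connected) (hℓ : ∀ e ∈ G.edgeSet, 0 < ℓ e)
    (h3 : Three G ℓ (fun v => - h v) L K) : Three G ℓ h L K := by
  have key : ∀ a b, Ab G ℓ (fun v => - h v) a b → Ab G ℓ h b a := by
    intro a b hab
    have h1 : pathDist G ℓ a b ≤ - h b - - h a := hab
    show pathDist G ℓ b a ≤ h a - h b
    rw [d_symm hc hℓ b a]
    linarith
  intro a ha b hb c hc' h1 h2 h4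
  rcases h3 a ha b hb c hc' h1 h2 h4 with h | h | h | h | h | h
  · exact Or.inr (Or.inl (key _ _ h))
  · exact Or.inl (key _ _ h)
  · exact Or.inr (Or.inr (Or.inr (Or.inl (key _ _ h))))
  · exact Or.inr (Or.inr (Or.inl (key _ _ h)))
  · exact Or.inr (Or.inr (Or.inr (Or.inr (Or.inr (key _ _ h)))))
  · exact Or.inr (Or.inr (Or.inr (Or.inr (Or.inl (key _ _ h)))))

theorem three_cap (hc : G.Connected) (hℓ : ∀ e ∈ G.edgeSet, 0 < ℓ e) {T : Set V}
    (hT : T.Nonempty) {M H : ℝ} (hM : ∀ x y, pathDist G ℓ x y ≤ M) (hH : ∀ v, M < H - h v)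
    (h3 : Three (capG G T) (capL ℓ h H) (capH h H) (capSet L) (some '' K)) :
    Three G ℓ h L K := by
  have key : ∀ a b, Ab (capG G T) (capL ℓ h H) (capH h H) (some a) (some b) → Ab G ℓ h a b := by
    intro a b hab
    have h1 : pathDist (capG G T) (capL ℓ h H) (some a) (some b) ≤ h b - h a := hab
    rw [cap_dist hc hℓ hT hM hH] at h1
    exact h1
  have hatt : ∀ a, (∃ x ∈ K, G.Adj x a) → ∃ x ∈ some '' K, (capG G T).Adj x (some a) := by
    rintro a ⟨x, hx, hxa⟩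
    exact ⟨some x, ⟨x, hx, rfl⟩, hxa⟩
  intro a ha b hb c hc' h1 h2 h4
  rcases h3 (some a) (Or.inr ⟨a, ha, rfl⟩) (some b) (Or.inr ⟨b, hb, rfl⟩) (some c)
    (Or.inr ⟨c, hc', rfl⟩) (hatt a h1) (hatt b h2) (hatt c h4) with h | h | h | h | h | h
  · exact Or.inl (key _ _ h)
  · exact Or.inr (Or.inl (key _ _ h))
  · exact Or.inr (Or.inr (Or.inl (key _ _ h)))
  · exact Or.inr (Or.inr (Or.inr (Or.inl (key _ _ h))))
  · exact Or.inr (Or.inr (Or.inr (Or.inr (Or.inl (key _ _ h)))))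
  · exact Or.inr (Or.inr (Or.inr (Or.inr (Or.inr (key _ _ h)))))

theorem cap_induce {T : Set V} (hK : (G.induce K).Connected) :
    ((capG G T).induce (some '' K)).Connected := by
  let f : (G.induce K) →g ((capG G T).induce (some '' K)) :=
    ⟨fun x => ⟨some x.1, x.1, x.2, rfl⟩, fun {a b} hab => hab⟩
  have hs : Function.Surjective f := by
    rintro ⟨_, x, hx, rfl⟩
    exact ⟨⟨x, hx⟩, rfl⟩
  obtain ⟨x₀⟩ := hK.nonempty
  have : Nonempty (some '' K : Set (Option V)) := ⟨f x₀⟩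
  refine ⟨fun a b => ?_⟩
  obtain ⟨a', rfl⟩ := hs a
  obtain ⟨b', rfl⟩ := hs b
  exact (hK.preconnected a' b').map f

theorem cap_disj (hKL : Disjoint K L) : Disjoint (some '' K) (capSet L) := by
  rw [Set.disjoint_left] at hKL ⊢
  rintro _ ⟨x, hx, rfl⟩ h1
  rcases h1 with h1 | ⟨y, hy, h1⟩
  · exact absurd h1 (by simp)
  · rw [Option.some.injEq] at h1
    exact hKL hx (h1 ▸ hy)

section three

variable [Finite V]

/-- both ends are vertices -/
theorem three_vv {σ : Equiv.Perm G.Dart} (hP : PlaneMap G σ) {s t : V}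
    (hW : WideL G ℓ h 1 L {s} {t}) (hL : L.Nonempty) (hK : (G.induce K).Connected)
    (hKL : Disjoint K L) : Three G ℓ h L K := by
  obtain ⟨t', ht', ht⟩ := hW.top_nonempty one_pos hL
  obtain ⟨s', hs', hs⟩ := hW.bot_nonempty one_pos hL
  obtain rfl : t' = t := ht'
  obtain rfl : s' = s := hs'
  have hc := hW.conn
  have hℓ := hW.pos
  set U : V → V → Prop := fun u v => G.Adj u v ∧ ℓ s(u, v) ≤ h v - h u ∧ u ∈ L ∧ v ∈ L with hU
  have key : ∀ a b, ReflTransGen U a b → Ab G ℓ h a b := by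
    intro a b hab
    induction hab with
    | refl =>
      show pathDist G ℓ a a ≤ h a - h a
      rw [d_self hℓ, sub_self]
    | @tail b c _ h2 ih =>
      have h3 := d_tri hc hℓ a b c
      have h4 := d_adj hℓ h2.1
      have h5 : pathDist G ℓ a b ≤ h b - h a := ih
      show pathDist G ℓ a c ≤ h c - h a
      linarith [h2.2.1]
  intro a ha b hb c hc' h1 h2 h4
  rcases w2_row V G hc ⟨σ, hP⟩ L h s' t' U
    (fun u v huv => ⟨huv.1, by
      have := hℓ _ (G.mem_edgeSet.2 huv.1)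
      linarith [huv.2.1], huv.2.2.1, huv.2.2.2⟩) hs ht
    (fun v hv hne => by
      obtain ⟨u, hu, ha, h5⟩ := hW.low v hv hne
      refine ⟨u, ha.symm, ?_, hu, hv⟩
      rw [Sym2.eq_swap]
      linarith)
    (fun v hv hne => by
      obtain ⟨u, hu, ha, h5⟩ := hW.high v hv hne
      exact ⟨u, ha, by linarith, hv, hu⟩)
    K hK hKL a ha b hb c hc' h1 h2 h4 with h | h | h | h | h | h
  · exact Or.inl (key _ _ h)
  · exact Or.inr (Or.inl (key _ _ h))
  · exact Or.inr (Or.inr (Or.inl (key _ _ h)))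
  · exact Or.inr (Or.inr (Or.inr (Or.inl (key _ _ h))))
  · exact Or.inr (Or.inr (Or.inr (Or.inr (Or.inl (key _ _ h)))))
  · exact Or.inr (Or.inr (Or.inr (Or.inr (Or.inr (key _ _ h)))))

/-- the lower end is a vertex, the upper end on a face -/
theorem three_vf {σ : Equiv.Perm G.Dart} (hP : PlaneMap G σ) {s : V} {d₀ : G.Dart} {T : Set V}
    (hTf : T ⊆ onFace σ d₀) (hW : WideL G ℓ h 1 L {s} T) (hL : L.Nonempty)
    (hK : (G.induce K).Connected) (hKL : Disjoint K L) : Three G ℓ h L K := by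
  have hne : Nonempty V := ⟨s⟩
  have hT := hW.top_nonempty one_pos hL
  obtain ⟨σ', hP', -⟩ := R2.H582.rowCap2 V G σ d₀ (T ∩ L) hW.conn hP hT
    (Set.inter_subset_left.trans hTf)
  obtain ⟨M, H, h1, h2⟩ := exists_height G ℓ h
  have hW' := hW.cap le_rfl hT h1 h2
  rw [Set.image_singleton] at hW'
  exact three_cap hW.conn hW.pos hT h1 h2 (three_vv hP' hW' ⟨none, Or.inl rfl⟩ (cap_induce hK)
    (cap_disj hKL))

/-- both ends on (different) faces -/
theorem three_ff {σ : Equiv.Perm G.Dart} (hP : PlaneMap G σ) {d₁ d₂ : G.Dart}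
    (hd : ¬ (faceNext σ).SameCycle d₁ d₂)
    (hW : WideL G ℓ h 1 L (onFace σ d₁) (onFace σ d₂)) (hL : L.Nonempty)
    (hK : (G.induce K).Connected) (hKL : Disjoint K L) : Three G ℓ h L K := by
  have hne : Nonempty V := ⟨d₁.fst⟩
  have hT₁ := hW.bot_nonempty one_pos hL
  obtain ⟨σ', hP', h0⟩ := R2.H582.rowCap2 V G σ d₁ (onFace σ d₁ ∩ L) hW.conn hP hT₁
    Set.inter_subset_left
  obtain ⟨d', hd'⟩ := h0 d₂ hd
  obtain ⟨M, H, h1, h2⟩ := exists_height G ℓ (fun v => - h v)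
  have hW' := (hW.neg.cap le_rfl hT₁ h1 h2).neg
  have h3 := three_vf hP' (T := some '' onFace σ d₂)
    (by rintro _ ⟨v, hv, rfl⟩; exact hd' v hv) hW' ⟨none, Or.inl rfl⟩ (cap_induce hK)
    (cap_disj hKL)
  exact three_neg hW.conn hW.pos (three_cap hW.conn hW.pos hT₁ h1 h2
    (three_neg (hW.neg.cap le_rfl hT₁ h1 h2).conn (hW.neg.cap le_rfl hT₁ h1 h2).pos h3))

theorem three {σ : Equiv.Perm G.Dart} (hP : PlaneMap G σ) (hB : Ends σ B₁ B₂)
    (hW : WideL G ℓ h 1 L B₁ B₂) (hL : L.Nonempty) (hK : (G.induce K).Connected)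
    (hKL : Disjoint K L) : Three G ℓ h L K := by
  obtain ⟨e1, e2, e3⟩ := hB
  have hcases : ((∃ s, B₁ = {s}) ∧ ∃ t, B₂ = {t}) ∨ ((∃ s, B₁ = {s}) ∧ ∃ d₂, B₂ = onFace σ d₂) ∨
      ((∃ d₁, B₁ = onFace σ d₁) ∧ ∃ t, B₂ = {t}) ∨
      ∃ d₁ d₂, ¬ (faceNext σ).SameCycle d₁ d₂ ∧ B₁ = onFace σ d₁ ∧ B₂ = onFace σ d₂ := by
    rcases e3 with h3 | h3 | h3
    · rcases e2 with h4 | h4
      · exact Or.inl ⟨h3, h4⟩
      · exact Or.inr (Or.inl ⟨h3, h4⟩)
    · rcases e1 with h4 | h4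
      · exact Or.inl ⟨h4, h3⟩
      · exact Or.inr (Or.inr (Or.inl ⟨h4, h3⟩))
    · exact Or.inr (Or.inr (Or.inr h3))
  rcases hcases with ⟨⟨s, rfl⟩, t, rfl⟩ | ⟨⟨s, rfl⟩, d₂, rfl⟩ | ⟨⟨d₁, rfl⟩, t, rfl⟩ |
    ⟨d₁, d₂, hd, rfl, rfl⟩
  · exact three_vv hP hW hL hK hKL
  · exact three_vf hP subset_rfl hW hL hK hKL
  · exact three_neg hW.conn hW.pos (three_vf hP subset_rfl hW.neg hL hK hKL)
  · exact three_ff hP hd hW hL hK hKL

/-- a tight set, as terminals with slope one -/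
theorem wideL_of_tight (hc : G.Connected) (hℓ : ∀ e ∈ G.edgeSet, 0 < ℓ e)
    (hT : TightSet G ℓ h L B₁ B₂) : WideL G ℓ h 1 L B₁ B₂ :=
  ⟨hc, hℓ, hT.lip, fun v hv hB => by
    obtain ⟨u, hu, ha, h1⟩ := hT.low v hv hB
    exact ⟨u, hu, ha, by linarith⟩, fun v hv hB => by
    obtain ⟨u, hu, ha, h1⟩ := hT.high v hv hB
    exact ⟨u, hu, ha, by linarith⟩⟩

end three

/-- **(B)** the neighbours in `L` of a connected set outside `L` lie on two lanes of `L` -/
theorem rowTwo : RowTwo := by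
  intro V _ G σ ℓ h L B₁ B₂ hc hP hℓ hB hT K hK hKL
  have hW := wideL_of_tight hc hℓ hT
  have h3 := three hP hB hW hT.ne hK hKL
  obtain ⟨C, hC1, hC2⟩ := Few.two_chains (R := Ab G ℓ h)
    (S := {a | a ∈ L ∧ ∃ x ∈ K, G.Adj x a})
    (fun a b c h1 h2 => by
      have h1' : pathDist G ℓ a b ≤ h b - h a := h1
      have h2' : pathDist G ℓ b c ≤ h c - h b := h2
      have := d_tri hc hℓ a b c
      show pathDist G ℓ a c ≤ h c - h a
      linarith)
    (fun a b h1 h2 => by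
      by_contra hne
      have h1' : pathDist G ℓ a b ≤ h b - h a := h1
      have h2' : pathDist G ℓ b a ≤ h a - h b := h2
      have h3 := d_pos hc hℓ hne
      have h4 := d_nonneg hℓ b a
      linarith)
    (fun a => by
      show pathDist G ℓ a a ≤ h a - h a
      rw [d_self hℓ, sub_self])
    (fun a ha b hb c hc' => h3 a ha.1 b hb.1 c hc'.1 ha.2 hb.2 hc'.2)
  obtain ⟨x₀, hx₀⟩ := hT.ne
  classical
  set N' : Fin 2 → Set V := fun i => if (C i ∩ L).Nonempty then C i ∩ L else {x₀} with hN'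
  set N : Bool → Set V := fun b => N' (if b then 1 else 0) with hN
  have hne : ∀ i, (N' i).Nonempty := by
    intro i
    by_cases h1 : (C i ∩ L).Nonempty
    · simp only [hN', if_pos h1]; exact h1
    · simp only [hN', if_neg h1]; exact ⟨x₀, rfl⟩
  have hsub : ∀ i, N' i ⊆ L := by
    intro i
    by_cases h1 : (C i ∩ L).Nonempty
    · simp only [hN', if_pos h1]; exact Set.inter_subset_right
    · simp only [hN', if_neg h1]
      rintro y rfl
      exact hx₀
  have hiso : ∀ i, ∀ a ∈ N' i, ∀ b ∈ N' i, pathDist G ℓ a b ≤ |h a - h b| := by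
    intro i a ha b hb
    by_cases h1 : (C i ∩ L).Nonempty
    · simp only [hN', if_pos h1] at ha hb
      rcases hC2 i a ha.1 b hb.1 with h2 | h2
      · have h2' : pathDist G ℓ a b ≤ h b - h a := h2
        rw [abs_sub_comm]
        exact h2'.trans (le_abs_self _)
      · have h2' : pathDist G ℓ b a ≤ h a - h b := h2
        rw [d_symm hc hℓ a b]
        exact h2'.trans (le_abs_self _)
    · simp only [hN', if_neg h1] at ha hb
      obtain rfl : a = x₀ := ha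
      obtain rfl : b = a := hb
      rw [d_self hℓ]
      exact abs_nonneg _
  refine ⟨N, fun b => hne _, fun b => hsub _, fun b => hiso _, ?_⟩
  intro x hx a ha hxa
  obtain ⟨i, hi⟩ := hC1 a ⟨ha, x, hx, hxa⟩
  have hi' : a ∈ N' i := by
    have h1 : (C i ∩ L).Nonempty := ⟨a, hi, ha⟩
    simp only [hN', if_pos h1]
    exact ⟨hi, ha⟩
  fin_cases i
  · exact ⟨false, hi'⟩
  · exact ⟨true, hi'⟩

end Vale.Agent.P235.RT
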