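/-
P235-M (helper324, after helper686): rounds which delete unions of lanes, faces, or arbitrary sets of
graphs without a `K_r` minor.
Definitions only.
-/
import Vale.Agent.P235.R2.RED.Classes2
import Vale.Agent.P235.R2.H341.KrSpec

set_option linter.all false
set_option autoImplicit false

namespace Vale.Agent.P235.Pk

/-- `MinorRounds Q s g k j β G ℓ`: at most `k` rounds which delete a `LaneSet` with at most `s` lanes,
at most `j` rounds which delete all vertices of one face of a rotation system of Euler genus at most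
`g`, and rounds which delete, from a graph without a `K_r` minor, any nonempty set `X` such that the
restriction of the metric to `X` has distortion at most `B` (`B ≥ 1`, the sum of the numbers
`(r + 2) ^ 3 * B` is `β`), lead to graphs of distortion at most `Q`.  After each round every component is replaced by a connected
induced subgraph of `G` which contains it. -/
inductive MinorRounds (Q : ℝ) (s g : ℕ) :
    ℕ → ℕ → ℝ → ∀ {V : Type}, SimpleGraph V → (Sym2 V → ℝ) → Prop
  | leaf {k j : ℕ} {β : ℝ} {V : Type} {G : SimpleGraph V} {ℓ : Sym2 V → ℝ} :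
      EmbedsL1 (pathDist G ℓ) Q → MinorRounds Q s g k j β G ℓ
  | lanes {k j : ℕ} {β : ℝ} {V : Type} {G : SimpleGraph V} {ℓ : Sym2 V → ℝ} {X : Set V}
      {S : V → Set V} : X.Nonempty → LaneSet G ℓ s X → Parts G X S →
      (∀ u, u ∉ X → MinorRounds Q s g k j β (G.induce (S u)) (fun e => ℓ (e.map Subtype.val))) →
      MinorRounds Q s g (k + 1) j β G ℓ
  | face {k j : ℕ} {β : ℝ} {V : Type} {G : SimpleGraph V} {ℓ : Sym2 V → ℝ}
      {σ : Equiv.Perm G.Dart} {d : G.Dart} {S : V → Set V} : SurfMap g G σ →
      Parts G (onFace σ d) S →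
      (∀ u, u ∉ onFace σ d →
        MinorRounds Q s g k j β (G.induce (S u)) (fun e => ℓ (e.map Subtype.val))) →
      MinorRounds Q s g k (j + 1) β G ℓ
  | set {k j r : ℕ} {β B : ℝ} {V : Type} {G : SimpleGraph V} {ℓ : Sym2 V → ℝ}
      {X : Set V} {S : V → Set V} : Kr.NoK r G → X.Nonempty → 1 ≤ B →
      EmbedsL1 (fun u v : X => pathDist G ℓ u v) B → Parts G X S → 0 ≤ β →
      (∀ u, u ∉ X → MinorRounds Q s g k j β (G.induce (S u)) (fun e => ℓ (e.map Subtype.val))) →
      MinorRounds Q s g k j (β + ((r : ℝ) + 2) ^ 3 * B) G ℓ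

end Vale.Agent.P235.Pk
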