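/-
P235-M (helper324, after helper686): rounds which delete unions of lanes (under the square root),
faces and arbitrary sets of graphs without a `K_r` minor (additive).
-/
import Vale.Agent.P235.R2.H802.Mix2
import Vale.Agent.P235.R2.H324.MinorDefs

set_option linter.all false
set_option autoImplicit false

namespace Vale.Agent.P235.MinR

open Finset Vale.Agent.P235 Vale.Agent.P235.Red H206 H536 H341W SqR

/-- the step which deletes any set of a graph without a `K_r` minor, with the constant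
`A (r + 2) ^ 3` -/
def StepX (A : ℝ) : Prop :=
  ∀ (V : Type) [Finite V] (G : SimpleGraph V) (ℓ : Sym2 V → ℝ) (r : ℕ), G.Connected →
    Kr.NoK r G → (∀ e ∈ G.edgeSet, 0 < ℓ e) →
    ∀ (X : Set V) (B : ℝ), X.Nonempty → 1 ≤ B →
    EmbedsL1 (fun u v : X => pathDist G ℓ u v) B →
    ∃ F : V → V → ℝ, IsL1 F ∧ (∀ u v, G.Adj u v → F u v ≤ ℓ s(u, v)) ∧
      ∀ ν : V → V, Near G ℓ X ν → ∀ x y δ, 0 < δ → pathDist G ℓ x (ν x) ≤ δ →
        pathDist G ℓ y (ν y) ≤ 5 / 4 * δ → 8 * δ ≤ pathDist G ℓ x y →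
        2 * δ ≤ A * (((r : ℝ) + 2) ^ 3 * B) * F x y

theorem stepX_of (h : Kr.RowK5) : StepX 400 := by
  intro V _ G ℓ r hc hK hℓ X B hX hB hE
  obtain ⟨F, h1, h2, h3⟩ := h V G ℓ r hc hK hℓ X B hX hB hE
  refine ⟨F, h1, h2, fun ν hν x y δ h4 h5 h6 h7 => (h3 ν hν x y δ h4 h5 h6 h7).trans (le_of_eq ?_)⟩
  ring

theorem parts_conn {V : Type} {G : SimpleGraph V} {X : Set V} {S : V → Set V}
    (h : Pk.Parts G X S) {u : V} (hu : u ∉ X) : (G.induce (S u)).Connected := by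
  first
  | exact (h u hu).2.1
  | exact (h u hu).2

/-- the rounds, pointed form -/
theorem minorRounds_pointed {A : ℝ} (hA : 1 ≤ A) (hT : StepX A) {Q : ℝ} (hQ : 0 < Q)
    {s g k j : ℕ} {β : ℝ} {V : Type} {G : SimpleGraph V} {ℓ : Sym2 V → ℝ}
    (h : Pk.MinorRounds Q s g k j β G ℓ) : 0 ≤ β → Finite V → G.Connected →
      (∀ e ∈ G.edgeSet, 0 < ℓ e) → ∀ H : V → ℝ, (∀ v, 0 < H v) →
      (∀ u v, G.Adj u v → |H u - H v| ≤ ℓ s(u, v)) →
      PointedQ G ℓ H (pathDist G ℓ) (k * (24 * ((Nat.log 2 s + 1 : ℕ) : ℝ) ^ 2))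
        (96 * Q + 112 + β * (A + 4) + j * (((g + 1 : ℕ) : ℝ) + 4)) := by
  induction h with
  | @leaf k j β V G ℓ hD =>
    intro hβ _ hc hℓ H hH hHl
    refine pointedQ_monoK hℓ hH ?_ ((pointedQ_of (pointed_iff.2
      (pointed_leafW hQ hc hℓ hH hHl hD))).mono (by positivity))
    have : (0 : ℝ) ≤ β * (A + 4) + j * (((g + 1 : ℕ) : ℝ) + 4) := by
      positivity
    linarith
  | @lanes k j β V G ℓ X S hX hR hp _ ih =>
    intro hβ hfin hc hℓ H hH hHl
    obtain ⟨u, L, hs, hne, hu, hiso, rfl⟩ := laneSet_lanes hX hR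
    have h1 := pointedQ_step hc hℓ hH hHl hs le_rfl hne hu hiso
      (k := k * (24 * ((Nat.log 2 s + 1 : ℕ) : ℝ) ^ 2))
      (K := 96 * Q + 112 + β * (A + 4) + j * (((g + 1 : ℕ) : ℝ) + 4))
      (by positivity)
      (by positivity) fun v hv => piece_stepQ hc hℓ hv
        (H341W.Piece.induce hc hℓ (parts_comp hp hv) (parts_conn hp hv)) (by positivity)
        (by positivity)
        fun H' hH' hHl' => ih v hv hβ inferInstance (parts_conn hp hv) (induce_pos hℓ _) H' hH' hHl'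
    refine h1.mono (le_of_eq ?_)
    push_cast
    ring
  | @face k j β V G ℓ σ d S hP hp _ ih =>
    intro hβ hfin hc hℓ H hH hHl
    have hd := pathDist_isMet hc hℓ
    obtain ⟨F, hF, hF1, hF2⟩ := surf_os hc hℓ hP d
    have hne : (onFace σ d).Nonempty := ⟨d.fst, d, Equiv.Perm.SameCycle.refl _ _, rfl⟩
    have hg1 : (1 : ℝ) ≤ ((g + 1 : ℕ) : ℝ) := by exact_mod_cast Nat.le_add_left 1 g
    have h1 := pointedQ_stepL (F := F) (L := ((g + 1 : ℕ) : ℝ)) hc hℓ hH hHl hne hF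
      (fun u v huv => (hF1 u v).trans (pathDist_adj hℓ huv)) hg1 (by
        intro ν hν x y δ hδ hx hy hxy
        have h1 := hF2 x y (ν x) (hν.mem x) (ν y) (hν.mem y)
        have h2 := hd.tri x (ν y) y
        rw [hd.symm (ν y) y] at h2
        have h3 := hd.tri x (ν x) y
        rw [hd.symm (ν x) y] at h3
        linarith)
      (k := k * (24 * ((Nat.log 2 s + 1 : ℕ) : ℝ) ^ 2))
      (K := 96 * Q + 112 + β * (A + 4) + j * (((g + 1 : ℕ) : ℝ) + 4))
      (by positivity)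
      (by positivity) fun v hv => piece_stepQ hc hℓ hv
        (H341W.Piece.induce hc hℓ (parts_comp hp hv) (parts_conn hp hv)) (by positivity)
        (by positivity)
        fun H' hH' hHl' => ih v hv hβ inferInstance (parts_conn hp hv) (induce_pos hℓ _) H' hH' hHl'
    refine pointedQ_monoK hℓ hH (le_of_eq ?_) h1
    push_cast
    ring
  | @set k j r β B' V G ℓ X S hP hX hB' hE hp hβ _ ih =>
    intro _ hfin hc hℓ H hH hHl
    obtain ⟨F, hF, hF1, hF2⟩ := hT V G ℓ r hc hP hℓ X B' hX hB' hE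
    have hr1 : (1 : ℝ) ≤ ((r : ℝ) + 2) ^ 3 :=
      one_le_pow₀ (by have : (0 : ℝ) ≤ r := Nat.cast_nonneg r; linarith)
    obtain ⟨B, hBd⟩ : ∃ B : ℝ, B = ((r : ℝ) + 2) ^ 3 * B' := ⟨_, rfl⟩
    have hB : 1 ≤ B := by rw [hBd]; nlinarith
    rw [← hBd] at hF2 ⊢
    have hAB : (1 : ℝ) ≤ A * B := by nlinarith
    have h1 := pointedQ_stepL (F := F) (L := A * B) hc hℓ hH hHl hX hF hF1 hAB hF2
      (k := k * (24 * ((Nat.log 2 s + 1 : ℕ) : ℝ) ^ 2))
      (K := 96 * Q + 112 + β * (A + 4) + j * (((g + 1 : ℕ) : ℝ) + 4))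
      (by positivity)
      (by positivity) fun v hv => piece_stepQ hc hℓ hv
        (H341W.Piece.induce hc hℓ (parts_comp hp hv) (parts_conn hp hv)) (by positivity)
        (by positivity)
        fun H' hH' hHl' => ih v hv hβ inferInstance (parts_conn hp hv) (induce_pos hℓ _) H' hH' hHl'
    refine pointedQ_monoK hℓ hH ?_ h1
    nlinarith

theorem minorRounds_distortion {A : ℝ} (hA : 1 ≤ A) (hT : StepX A) {Q : ℝ} (hQ : 0 < Q)
    {s g k j : ℕ} {β : ℝ} (hβ : 0 ≤ β) {V : Type} [Finite V] {G : SimpleGraph V}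
    {ℓ : Sym2 V → ℝ} (hc : G.Connected)
    (hℓ : ∀ e ∈ G.edgeSet, 0 < ℓ e) (h : Pk.MinorRounds Q s g k j β G ℓ) :
    EmbedsL1 (pathDist G ℓ) (160000 * √(k : ℝ) * ((Nat.log 2 s + 1 : ℕ) : ℝ) +
      16000 * (96 * Q + 112 + β * (A + 4) + j * (((g + 1 : ℕ) : ℝ) + 4))) := by
  set m : ℝ := ((Nat.log 2 s + 1 : ℕ) : ℝ) with hm
  have hm0 : (0 : ℝ) ≤ m := Nat.cast_nonneg _
  have h1 := pointedQ_embeds hc hℓ (κ := k * (24 * m ^ 2))
    (K := 96 * Q + 112 + β * (A + 4) + j * (((g + 1 : ℕ) : ℝ) + 4))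
    (by positivity) (by positivity)
    (minorRounds_pointed hA hT hQ h hβ inferInstance hc hℓ)
  have h2 : √((k : ℝ) * (24 * m ^ 2)) ≤ 5 * √(k : ℝ) * m := by
    refine (Real.sqrt_le_left (by positivity)).2 ?_
    rw [mul_pow, mul_pow, Real.sq_sqrt (Nat.cast_nonneg k)]
    have : (0 : ℝ) ≤ k * m ^ 2 := by positivity
    nlinarith
  obtain ⟨Ω, μ', μ, f, hf⟩ := h1
  refine ⟨Ω, μ', μ, f, fun x y => ⟨(hf x y).1, (hf x y).2.trans
    (mul_le_mul_of_nonneg_right ?_ (pathDist_isMet hc hℓ |>.nonneg x y))⟩⟩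
  linarith

/-- **Rounds**: `k` rounds of `s` lanes cost `√k log (s + 2)`, `j` rounds of faces of Euler genus
`g` cost `j (g + 1)`, a round which deletes any set `X` of a graph without a `K_r` minor costs
`(r + 2) ^ 3` times the distortion of the metric of `X` -/
theorem minorRounds_final {A : ℝ} (hA : 1 ≤ A) (hT : StepX A) {Q : ℝ} (hQ : 1 ≤ Q)
    {s g k j : ℕ} {β : ℝ} (hβ : 0 ≤ β) {V : Type} [Finite V] {G : SimpleGraph V}
    {ℓ : Sym2 V → ℝ} (hc : G.Connected)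
    (hℓ : ∀ e ∈ G.edgeSet, 0 < ℓ e) (h : Pk.MinorRounds Q s g k j β G ℓ) :
    EmbedsL1 (pathDist G ℓ) (4000000 * A * (Q + √(k : ℝ) * Real.log ((s : ℝ) + 2) +
      j * ((g : ℝ) + 1) + β)) := by
  obtain ⟨Ω, μ', μ, f, hf⟩ := minorRounds_distortion hA hT (by linarith) hβ hc hℓ h
  refine ⟨Ω, μ', μ, f, fun x y => ⟨(hf x y).1, (hf x y).2.trans
    (mul_le_mul_of_nonneg_right ?_ (pathDist_isMet hc hℓ |>.nonneg x y))⟩⟩
  have hs0 : (0 : ℝ) ≤ s := Nat.cast_nonneg _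
  have hlog : ((Nat.log 2 s + 1 : ℕ) : ℝ) ≤ 4 * Real.log ((s : ℝ) + 2) := by
    have h2 : (1 : ℝ) / 2 ≤ Real.log 2 := by
      have := Real.log_two_gt_d9
      linarith
    have h3 : Real.log 2 ≤ Real.log ((s : ℝ) + 2) := Real.log_le_log (by norm_num) (by linarith)
    rcases Nat.eq_zero_or_pos s with rfl | hs
    · simp only [Nat.log_zero_right, zero_add, Nat.cast_one]
      linarith
    · have h4 : (2 : ℝ) ^ (Nat.log 2 s) ≤ s := by
        exact_mod_cast Nat.pow_log_le_self 2 hs.ne'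
      have h5 : (Nat.log 2 s : ℝ) * Real.log 2 ≤ Real.log ((s : ℝ) + 2) := by
        rw [← Real.log_pow]
        exact Real.log_le_log (by positivity) (h4.trans (by linarith))
      have h6 : (0 : ℝ) ≤ (Nat.log 2 s : ℝ) := Nat.cast_nonneg _
      push_cast
      nlinarith
  have hk0 : 0 ≤ √(k : ℝ) := Real.sqrt_nonneg _
  have e1 : 160000 * √(k : ℝ) * ((Nat.log 2 s + 1 : ℕ) : ℝ) ≤
      640000 * (√(k : ℝ) * Real.log ((s : ℝ) + 2)) := by
    have := mul_le_mul_of_nonneg_left hlog (by positivity : 0 ≤ 160000 * √(k : ℝ))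
    linarith
  have hL0 : 0 ≤ Real.log ((s : ℝ) + 2) := Real.log_nonneg (by linarith)
  have e2 : √(k : ℝ) * Real.log ((s : ℝ) + 2) ≤ A * (√(k : ℝ) * Real.log ((s : ℝ) + 2)) :=
    le_mul_of_one_le_left (by positivity) hA
  have e3 : Q ≤ A * Q := le_mul_of_one_le_left (by linarith) hA
  have e4 : β * (A + 4) ≤ 5 * (A * β) := by nlinarith
  have e5 : 0 ≤ A * β := by positivity
  have hj0 : (0 : ℝ) ≤ j := Nat.cast_nonneg _
  have hg0 : (0 : ℝ) ≤ g := Nat.cast_nonneg _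
  have e6 : (j : ℝ) * (((g + 1 : ℕ) : ℝ) + 4) ≤ 5 * (j * ((g : ℝ) + 1)) := by
    push_cast
    nlinarith
  have e7 : (j : ℝ) * ((g : ℝ) + 1) ≤ A * (j * ((g : ℝ) + 1)) :=
    le_mul_of_one_le_left (by positivity) hA
  nlinarith

end Vale.Agent.P235.MinR
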