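import Vale.Agent.P235.R2.H341.K1
import Vale.Agent.P235.R2.H341.K4
import Vale.Agent.P235.R2.H934.KrK2
import Vale.Agent.P235.R2.H910.Kr3
import Vale.Agent.P235.R2.H680.RowPot
import Vale.Agent.P235.R2.H907.RowCount
import Vale.Agent.P235.R2.H611.KrK6
import Vale.Agent.P235.R2.H324.KrK5
import Vale.Agent.P235.R2.H324.MinorRounds

/-!
P235-M (helper324).  Klein, Plotkin, Rao for graphs without a `K_r` minor: everything together.
-/

set_option autoImplicit false
set_option linter.all false

namespace Vale.Agent.P235.MinR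

open Vale.Agent.P235

/-- random partitions, for all graphs without a `K_r` minor -/
theorem parts_all : Kr.RowK3 :=
  R2.H910.Kr3.rowK3 (Kr.rowK2 Kr.rowK1) Kpr.rowPot Kpr.rowCount

/-- random retractions onto any set, for all graphs without a `K_r` minor -/
theorem retr_all : Kr.RowK4 := Kr.rowK4 Kpr.rowCount parts_all

/-- the step which deletes any set, for all graphs without a `K_r` minor -/
theorem step_all : StepX 400 := stepX_of (Kr.rowK5 retr_all)

/-- **Rounds**: `k` rounds of `s` lanes cost `√k log (s + 2)`, `j` rounds of faces of Euler genus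
`g` cost `j (g + 1)`, a round which deletes any set `X` of a graph without a `K_r` minor costs
`(r + 2) ^ 3` times the distortion of the metric of `X` -/
theorem minorRounds_all {Q : ℝ} (hQ : 1 ≤ Q) {s g k j : ℕ} {β : ℝ} (hβ : 0 ≤ β) {V : Type}
    [Finite V] {G : SimpleGraph V} {ℓ : Sym2 V → ℝ} (hc : G.Connected)
    (hℓ : ∀ e ∈ G.edgeSet, 0 < ℓ e) (h : Pk.MinorRounds Q s g k j β G ℓ) :
    EmbedsL1 (pathDist G ℓ) (1600000000 * (Q + √(k : ℝ) * Real.log ((s : ℝ) + 2) +
      j * ((g : ℝ) + 1) + β)) := by
  have h1 := minorRounds_final (A := 400) (by norm_num) step_all hQ hβ hc hℓ h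
  have e : (4000000 * 400 : ℝ) = 1600000000 := by norm_num
  rw [e] at h1
  exact h1

/-- rounds in plane graphs are rounds in graphs without a `K_6` minor -/
theorem noK_of_plane {V : Type} [Finite V] {G : SimpleGraph V} (hc : G.Connected)
    {σ : Equiv.Perm G.Dart} (h : PlaneMap G σ) : Kr.NoK 6 G := Kr.rowK6 V G hc ⟨σ, h⟩

end Vale.Agent.P235.MinR
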